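import Vale.Agent.P245.H68.Multi
import Vale.Agent.P245.H333.Sup2
import Vale.Agent.P245.QC.Med12
import Vale.Agent.P245.QC.PW12

/-! P245: log-Sobolev inequality for functions whose level sets have convex outer boundary: after
filling the holes they are finite disjoint unions of convex sets (helper316, over the rows of
helper68, helper333, helper368, helper719) -/

open MeasureTheory Set Filter Topology
open scoped ENNReal ContDiff

namespace Vale.Agent.P245.H316

open Vale.Agent.P245.QC Vale.Agent.P245.H368 Vale.Agent.P245.H333 Vale.Agent.P245.H68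

variable {n : ℕ}

/-- `A` is a finite disjoint union of compact convex sets from which holes (arbitrary subsets of
the interior) are removed; if there are holes, the filled set has measure at most one half. -/
def Outer (μ : Measure (EuclideanSpace ℝ (Fin n))) (A : Set (EuclideanSpace ℝ (Fin n))) : Prop :=
  ∃ (N : ℕ) (B : Fin N → Set (EuclideanSpace ℝ (Fin n))),
    (∀ i, Convex ℝ (B i)) ∧ (∀ i, IsCompact (B i)) ∧ (∀ i j, i ≠ j → Disjoint (B i) (B j)) ∧
    (∀ i, frontier (B i) ⊆ A) ∧ A ⊆ ⋃ i, B i ∧ (μ.real (⋃ i, B i) ≤ 1 / 2 ∨ A = ⋃ i, B i)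

/-- `p √log(1/p)` increases on `[0, 1/2]` -/
theorem prof_mono {p q : ℝ} (hp : 0 < p) (hpq : p ≤ q) (hq : q ≤ 1 / 2) :
    p * √(Real.log (1 / p)) ≤ q * √(Real.log (1 / q)) := by
  have hq0 : 0 < q := hp.trans_le hpq
  have e1 : p * √(Real.log (1 / p)) = √(p ^ 2 * Real.log (1 / p)) := by
    rw [Real.sqrt_mul (sq_nonneg p), Real.sqrt_sq hp.le]
  have e2 : q * √(Real.log (1 / q)) = √(q ^ 2 * Real.log (1 / q)) := by
    rw [Real.sqrt_mul (sq_nonneg q), Real.sqrt_sq hq0.le]
  rw [e1, e2]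
  apply Real.sqrt_le_sqrt
  set X := Real.log (1 / p) with hX
  set Y := Real.log (1 / q) with hY
  have hX' : X = - Real.log p := by rw [hX, one_div, Real.log_inv]
  have hY' : Y = - Real.log q := by rw [hY, one_div, Real.log_inv]
  have hYX : Y ≤ X := by
    rw [hX', hY']
    linarith [Real.log_le_log hp hpq]
  have hY2 : 1 / 2 ≤ Y := by
    have h1 : Real.log 2 ≤ Y := by
      apply Real.log_le_log (by norm_num)
      rw [le_div_iff₀ hq0]; linarith
    linarith [Real.log_two_gt_d9]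
  have hr : q = p * Real.exp (X - Y) := by
    have : X - Y = Real.log (q / p) := by rw [Real.log_div hq0.ne' hp.ne', hX', hY']; ring
    rw [this, Real.exp_log (by positivity)]
    field_simp
  have h2 : 1 + 2 * (X - Y) ≤ Real.exp (X - Y) ^ 2 := by
    have : Real.exp (X - Y) ^ 2 = Real.exp (2 * (X - Y)) := by
      rw [← Real.exp_nat_mul]; norm_num
    rw [this]
    linarith [Real.add_one_le_exp (2 * (X - Y))]
  have h3 : X ≤ Real.exp (X - Y) ^ 2 * Y := by
    have : X ≤ (1 + 2 * (X - Y)) * Y := by nlinarith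
    exact this.trans (mul_le_mul_of_nonneg_right h2 (by linarith))
  calc p ^ 2 * X ≤ p ^ 2 * (Real.exp (X - Y) ^ 2 * Y) :=
        mul_le_mul_of_nonneg_left h3 (sq_nonneg p)
    _ = q ^ 2 * Y := by
        conv_rhs => rw [hr]
        ring

/-- **Holes are free.** -/
theorem good_fill {μ : Measure (EuclideanSpace ℝ (Fin n))} [IsProbabilityMeasure μ] {κ r₀ : ℝ}
    (hκ : 0 < κ) (hr₀ : 0 < r₀) (hiso : Iso μ κ r₀) {A : Set (EuclideanSpace ℝ (Fin n))}
    (hAc : IsClosed A) (hA0 : 0 < μ.real A) (hA2 : μ.real A ≤ 1 / 2) (hA : Outer μ A) :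
    Good μ κ A := by
  obtain ⟨N, B, hconv, hcomp, hdis, hfr, hAB, hm⟩ := hA
  set U := ⋃ i, B i with hU
  have hUc : IsCompact U := isCompact_iUnion hcomp
  have hU2 : μ.real U ≤ 1 / 2 := by
    rcases hm with h | h
    · exact h
    · rw [← h]; exact hA2
  have hfin : FinConv U := ⟨N, B, hconv, fun i => (hcomp i).isClosed, hdis, rfl⟩
  have hev := iso_union hκ hr₀ hiso hfin hUc hU2
  obtain ⟨δ, hδ, hsub⟩ := mem_nhdsGT_iff_exists_Ioc_subset.1 hev
  refine ⟨δ, hδ, fun r hr hrδ => ?_⟩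
  have h1 : μ.real U * (1 + r * √(Real.log (1 / μ.real U)) / κ)
      ≤ μ.real (Metric.cthickening r U) := hsub ⟨hr, hrδ⟩
  have hAU : μ.real A ≤ μ.real U := measureReal_mono hAB (measure_ne_top _ _)
  have hprof := prof_mono hA0 hAU hU2
  -- the outer collar
  have hcol : Metric.cthickening r U \ U ⊆ Metric.cthickening r A := by
    rintro x ⟨hx, hxU⟩
    rw [hUc.cthickening_eq_biUnion_closedBall hr.le] at hx
    obtain ⟨y, hy, hxy⟩ := mem_iUnion₂.1 hx
    obtain ⟨i, hyi⟩ := mem_iUnion.1 hy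
    have hxi : x ∉ B i := fun h => hxU (mem_iUnion.2 ⟨i, h⟩)
    obtain ⟨z, hz2, hz1⟩ := exists_mem_frontier_infDist_compl_eq_dist (x := x) (s := (B i)ᶜ) hxi
      (by
        intro h0
        have : y ∈ (B i)ᶜ := by rw [h0]; exact mem_univ y
        exact this hyi)
    rw [compl_compl] at hz1
    rw [frontier_compl] at hz2
    have hzr : dist x z ≤ r := by
      rw [← hz1]
      exact (Metric.infDist_le_dist_of_mem hyi).trans (Metric.mem_closedBall.1 hxy)
    exact Metric.mem_cthickening_of_dist_le x z r A (hfr i hz2) hzr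
  have hsubs : A ∪ (Metric.cthickening r U \ U) ⊆ Metric.cthickening r A :=
    union_subset (Metric.self_subset_cthickening A) hcol
  have hdisj : Disjoint A (Metric.cthickening r U \ U) :=
    disjoint_left.2 fun x hx hx2 => hx2.2 (hAB hx)
  have hmeas : MeasurableSet (Metric.cthickening r U \ U) :=
    Metric.isClosed_cthickening.measurableSet.diff hUc.isClosed.measurableSet
  have h2 : μ.real A + μ.real (Metric.cthickening r U \ U) ≤ μ.real (Metric.cthickening r A) := by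
    rw [← measureReal_union hdisj hmeas]
    exact measureReal_mono hsubs (measure_ne_top _ _)
  have h3 : μ.real (Metric.cthickening r U \ U) = μ.real (Metric.cthickening r U) - μ.real U :=
    measureReal_sdiff (Metric.self_subset_cthickening U) hUc.isClosed.measurableSet
  have h4 : r / κ * (μ.real A * √(Real.log (1 / μ.real A)))
      ≤ r / κ * (μ.real U * √(Real.log (1 / μ.real U))) :=
    mul_le_mul_of_nonneg_left hprof (by positivity)
  have e1 : μ.real A * (1 + r * √(Real.log (1 / μ.real A)) / κ)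
      = μ.real A + r / κ * (μ.real A * √(Real.log (1 / μ.real A))) := by ring
  have e2 : μ.real U * (1 + r * √(Real.log (1 / μ.real U)) / κ)
      = μ.real U + r / κ * (μ.real U * √(Real.log (1 / μ.real U))) := by ring
  rw [e1]
  rw [e2] at h1
  linarith

/-- the entropy inequality for functions whose level sets satisfy the infinitesimal isoperimetric
inequality -/
theorem finG (hM : StMed) (hP : StPW) {n : ℕ} {μ : Measure (EuclideanSpace ℝ (Fin n))}
    [IsProbabilityMeasure μ] {κ P : ℝ} (hκ : 0 < κ)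
    (hPoin : ∀ f : EuclideanSpace ℝ (Fin n) → ℝ, ContDiff ℝ ∞ f → HasCompactSupport f →
      (∫ x, f x ^ 2 ∂μ) - (∫ x, f x ∂μ) ^ 2 ≤ P * ∫ x, ‖gradient f x‖ ^ 2 ∂μ)
    {f : EuclideanSpace ℝ (Fin n) → ℝ} (hf : ContDiff ℝ ∞ f) (hfc : HasCompactSupport f)
    (hq : ∀ᵐ t : ℝ, 0 < t → μ.real {x | t ≤ |f x|} ≤ 1 / 2 → 0 < μ.real {x | t ≤ |f x|} →
      Good μ κ {x | t ≤ |f x|}) :
    Entropy μ (fun x => f x ^ 2) ≤ (60 * P + 640 * κ ^ 2) * ∫ x, ‖gradient f x‖ ^ 2 ∂μ := by
  have hcf0 : Continuous f := hf.continuous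
  have hcf : Continuous fun x => |f x| := hf.continuous.abs
  have hfca : HasCompactSupport fun x => |f x| := hfc.norm
  obtain ⟨M, hM0, hMhalf, hMvar⟩ := hM n μ (fun x => |f x|) hcf hfca (fun x => abs_nonneg _)
  have hVar0 := hPoin f hf hfc
  have hq' : ∀ᵐ t : ℝ, M < t → 0 < μ.real {x | t ≤ |f x|} → Good μ κ {x | t ≤ |f x|} := by
    filter_upwards [hq] with t ht htM hp
    exact ht (lt_of_le_of_lt hM0 htM) (hMhalf t htM) hp
  have hEB := fun (G : ℝ) (hG : 0 < G) => ebU (κ := κ) hf hfc hM0 hMhalf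
    (fun _ _ hγ hw hγ0 hw0 hwM hwγ => sup2 hκ hf hfc hq' hγ hw hγ0 hw0 hwM hwγ) (G := G) hG
  set I : ℝ := ∫ x, ‖gradient f x‖ ^ 2 ∂μ with hI
  obtain ⟨B, hB⟩ := hfc.exists_bound_of_continuous hcf0
  have hint : ∀ φ : ℝ → ℝ, Continuous φ → Integrable (fun x => φ |f x|) μ := by
    intro φ hφ
    obtain ⟨D, hD⟩ := (isCompact_Icc (a := -B) (b := B)).exists_bound_of_continuousOn
      (f := φ) hφ.continuousOn
    refine Integrable.of_bound (hφ.comp hcf).aestronglyMeasurable D (ae_of_all _ fun x => ?_)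
    refine hD _ ⟨?_, by simpa using hB x⟩
    have h1 := abs_nonneg (f x)
    have h2 : |f x| ≤ B := by simpa using hB x
    linarith
  have hsq : ∀ x, f x ^ 2 = |f x| ^ 2 := fun x => (sq_abs (f x)).symm
  simp only [hsq] at hVar0 ⊢
  have habs : (∫ x, f x ∂μ) ^ 2 ≤ (∫ x, |f x| ∂μ) ^ 2 := by
    rw [← sq_abs (∫ x, f x ∂μ)]
    exact pow_le_pow_left₀ (abs_nonneg _) (abs_integral_le_integral_abs) 2
  have hVar : (∫ x, |f x| ^ 2 ∂μ) - (∫ x, |f x| ∂μ) ^ 2 ≤ P * I := by linarith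
  have hi1 : Integrable (fun x => |f x| ^ 2 * Real.log (|f x| ^ 2)) μ :=
    hint (fun u => u ^ 2 * Real.log (u ^ 2))
      (Real.continuous_mul_log.comp (continuous_pow 2))
  have hi2 : Integrable (fun x => |f x| ^ 2) μ := hint (fun u => u ^ 2) (by fun_prop)
  have hi3 : Integrable (fun x => (|f x| - M) ^ 2) μ := hint (fun u => (u - M) ^ 2) (by fun_prop)
  have hi4 : Integrable (fun x => max (|f x| - M) 0 ^ 2) μ :=
    hint (fun u => max (u - M) 0 ^ 2) (by fun_prop)
  -- the truncated second moment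
  set G₀ : ℝ := ∫ x, max (|f x| - M) 0 ^ 2 ∂μ with hG₀
  have hG₀0 : 0 ≤ G₀ := integral_nonneg fun x => by positivity
  have hG₀le : G₀ ≤ ∫ x, (|f x| - M) ^ 2 ∂μ := by
    refine integral_mono hi4 hi3 fun x => ?_
    show max (|f x| - M) 0 ^ 2 ≤ (|f x| - M) ^ 2
    rcases le_total (|f x| - M) 0 with h | h
    · rw [max_eq_right h]
      nlinarith [sq_nonneg (|f x| - M)]
    · rw [max_eq_left h]
  refine le_of_forall_pos_le_add fun ε hε => ?_
  have hε' : 0 < ε / 10 := by positivity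
  set G : ℝ := G₀ + ε / 10 with hG
  have hGpos : 0 < G := by positivity
  have hEBG := hEB G hGpos (by linarith)
  have hi5 : Integrable (fun x => max (|f x| - M) 0 ^ 2 *
      Real.log (Real.exp 1 + max (|f x| - M) 0 ^ 2 / G)) μ := by
    refine hint (fun u => max (u - M) 0 ^ 2 * Real.log (Real.exp 1 + max (u - M) 0 ^ 2 / G)) ?_
    refine Continuous.mul (by fun_prop) (Continuous.log (by fun_prop) fun u => ?_)
    have h1 := Real.exp_pos 1
    have h2 : 0 ≤ max (u - M) 0 ^ 2 / G := by positivity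
    exact ne_of_gt (by linarith)
  set c : ℝ := M ^ 2 + G with hc
  have hcpos : 0 < c := by positivity
  set m : ℝ := ∫ x, |f x| ^ 2 ∂μ with hm
  have hm0 : 0 ≤ m := integral_nonneg fun x => by positivity
  have hlog : m * Real.log c - m * Real.log m ≤ c - m := by
    rcases hm0.eq_or_lt with h | h
    · rw [← h]
      simpa using hcpos.le
    · have h1 : Real.log (c / m) ≤ c / m - 1 := Real.log_le_sub_one_of_pos (by positivity)
      rw [Real.log_div hcpos.ne' h.ne'] at h1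
      have h2 := mul_le_mul_of_nonneg_left h1 h.le
      have h3 : m * (c / m - 1) = c - m := by
        field_simp
      nlinarith [h2, h3]
  have hleft : ∫ x, (|f x| ^ 2 * Real.log (|f x| ^ 2) - |f x| ^ 2 * Real.log c - |f x| ^ 2 + c) ∂μ =
      (∫ x, |f x| ^ 2 * Real.log (|f x| ^ 2) ∂μ) - m * Real.log c - m + c := by
    have hj1 : Integrable (fun x => |f x| ^ 2 * Real.log c) μ := hi2.mul_const _
    have hj2 : Integrable (fun x => |f x| ^ 2 * Real.log (|f x| ^ 2) - |f x| ^ 2 * Real.log c) μ :=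
      hi1.sub hj1
    have hj3 : Integrable
        (fun x => |f x| ^ 2 * Real.log (|f x| ^ 2) - |f x| ^ 2 * Real.log c - |f x| ^ 2) μ :=
      hj2.sub hi2
    rw [integral_add hj3 (integrable_const c), integral_sub hj2 hi2, integral_sub hi1 hj1,
      integral_mul_const]
    simp [hm]
  have hright : ∫ x, (10 * (|f x| - M) ^ 2 + 10 * G +
      10 * (max (|f x| - M) 0 ^ 2 * Real.log (Real.exp 1 + max (|f x| - M) 0 ^ 2 / G))) ∂μ =
      10 * (∫ x, (|f x| - M) ^ 2 ∂μ) + 10 * G +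
      10 * ∫ x, max (|f x| - M) 0 ^ 2 * Real.log (Real.exp 1 + max (|f x| - M) 0 ^ 2 / G) ∂μ := by
    have hj1 : Integrable (fun x => 10 * (|f x| - M) ^ 2) μ := hi3.const_mul 10
    have hj2 : Integrable (fun x => 10 * (|f x| - M) ^ 2 + 10 * G) μ :=
      hj1.add (integrable_const _)
    have hj3 : ∫ _x : EuclideanSpace ℝ (Fin n), 10 * G ∂μ = 10 * G := by
      rw [integral_const]
      simp
    rw [integral_add hj2 (hi5.const_mul 10), integral_add hj1 (integrable_const _),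
      integral_const_mul, integral_const_mul 10 (fun x => max (|f x| - M) 0 ^ 2 *
        Real.log (Real.exp 1 + max (|f x| - M) 0 ^ 2 / G)), hj3]
  have hmono : ∫ x, (|f x| ^ 2 * Real.log (|f x| ^ 2) - |f x| ^ 2 * Real.log c - |f x| ^ 2 + c) ∂μ ≤
      ∫ x, (10 * (|f x| - M) ^ 2 + 10 * G +
      10 * (max (|f x| - M) 0 ^ 2 * Real.log (Real.exp 1 + max (|f x| - M) 0 ^ 2 / G))) ∂μ := by
    refine integral_mono (((hi1.sub (hi2.mul_const _)).sub hi2).add (integrable_const c))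
      (((hi3.const_mul 10).add (integrable_const _)).add (hi5.const_mul 10)) fun x => ?_
    exact hP M G |f x| hM0 hGpos (abs_nonneg _)
  rw [hleft, hright] at hmono
  show (∫ x, |f x| ^ 2 * Real.log (|f x| ^ 2) ∂μ) -
    (∫ x, |f x| ^ 2 ∂μ) * Real.log (∫ x, |f x| ^ 2 ∂μ) ≤ _
  rw [← hm]
  have hVar3 : ∫ x, (|f x| - M) ^ 2 ∂μ ≤ 3 * (P * I) := by linarith
  nlinarith [hmono, hVar3, hEBG, hG₀le, hlog]

/-- **Threshold form for functions whose level sets have convex outer boundary.** -/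
theorem high_outer (hM : StMed) (hPW : StPW) {μ : Measure (EuclideanSpace ℝ (Fin n))}
    [IsProbabilityMeasure μ] {κ r₀ P : ℝ} (hκ : 0 < κ) (hr₀ : 0 < r₀) (hP : 0 ≤ P)
    (hIso : Iso μ κ r₀)
    (hPoin : ∀ f : EuclideanSpace ℝ (Fin n) → ℝ, ContDiff ℝ ∞ f → HasCompactSupport f →
      (∫ x, f x ^ 2 ∂μ) - (∫ x, f x ∂μ) ^ 2 ≤ P * ∫ x, ‖gradient f x‖ ^ 2 ∂μ)
    {f : EuclideanSpace ℝ (Fin n) → ℝ} (hf : ContDiff ℝ ∞ f) (hc : HasCompactSupport f) {T : ℝ}
    (hq : ∀ᵐ t : ℝ, T < t → Outer μ {x | t ≤ |f x|}) :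
    Entropy μ (fun x => f x ^ 2) ≤
      (280 * P + 2560 * κ ^ 2) * (1 + Real.log (1 + T ^ 2 / ∫ x, f x ^ 2 ∂μ)) *
        ∫ x, ‖gradient f x‖ ^ 2 ∂μ := by
  have h1 := of_trunc (D := 60 * P + 640 * κ ^ 2) (P := P) (by positivity) hP hf hc
    (hPoin f hf hc) (T := T) (fun T' hT'0 hTT' _ => by
      refine finG hM hPW hκ hPoin (h_contDiff hT'0 hf) (h_compact hT'0 hc) ?_
      have hq' : ∀ᵐ t : ℝ, T' < t → Outer μ {x | t ≤ |f x|} := by
        filter_upwards [hq] with t ht htT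
        exact ht (hTT'.trans_lt htT)
      filter_upwards [ae_levels hT'0 hq'] with s hs hs0 hs2 hsp
      obtain ⟨t, htT, hts, hG⟩ := hs hs0
      have e : {x | s ≤ |(fun x => gr T' |f x|) x|} = {x | t ≤ |f x|} := by
        ext x
        show s ≤ |(gr T' |f x|)| ↔ t ≤ |f x|
        rw [abs_of_nonneg (gr_nonneg hT'0 _), ← hts]
        exact gr_le_gr_iff hT'0 htT
      rw [e] at hs2 hsp ⊢
      exact good_fill hκ hr₀ hIso (isClosed_le continuous_const hf.continuous.abs) hsp hs2 hG)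
  refine h1.trans (le_of_eq ?_)
  ring

/-- a level set at a positive level which is a finite disjoint union of closed convex sets is
covered (no holes) -/
theorem outer_of_finConv {μ : Measure (EuclideanSpace ℝ (Fin n))}
    {f : EuclideanSpace ℝ (Fin n) → ℝ} (hf : Continuous f) (hc : HasCompactSupport f) {t : ℝ}
    (ht : 0 < t) (h : FinConv {x | t ≤ |f x|}) : Outer μ {x | t ≤ |f x|} := by
  obtain ⟨N, B, h1, h2, h3, h4⟩ := h
  have hAk : IsCompact {x | t ≤ |f x|} := by
    refine IsCompact.of_isClosed_subset hc (isClosed_le continuous_const hf.abs)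
      fun x hx => subset_tsupport f ?_
    have h1 : t ≤ |f x| := hx
    intro h0
    rw [h0, abs_zero] at h1
    linarith
  have hsub : ∀ i, B i ⊆ {x | t ≤ |f x|} := fun i => by rw [h4]; exact subset_iUnion B i
  exact ⟨N, B, h1, fun i => hAk.of_isClosed_subset (h2 i) (hsub i), h3,
    fun i => (h2 i).frontier_subset.trans (hsub i), h4.subset, Or.inr h4⟩

/-- **Final form.** Log-Sobolev inequality for test functions `f` of any sign such that for almost
every level `t > T` the level set `{t ≤ |f|}` has convex outer boundary: there are finitely many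
pairwise disjoint compact convex sets `B i` with `⋃ frontier (B i) ⊆ {t ≤ |f|} ⊆ ⋃ B i`, and
either `⋃ B i` has measure at most one half or there are no holes. -/
theorem lsi_outer {μ : Measure (EuclideanSpace ℝ (Fin n))}
    [IsProbabilityMeasure μ] {κ r₀ P : ℝ} (hκ : 0 < κ) (hr₀ : 0 < r₀) (hP : 0 ≤ P)
    (hIso : Iso μ κ r₀)
    (hPoin : ∀ f : EuclideanSpace ℝ (Fin n) → ℝ, ContDiff ℝ ∞ f → HasCompactSupport f →
      (∫ x, f x ^ 2 ∂μ) - (∫ x, f x ∂μ) ^ 2 ≤ P * ∫ x, ‖gradient f x‖ ^ 2 ∂μ)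
    {f : EuclideanSpace ℝ (Fin n) → ℝ} (hf : ContDiff ℝ ∞ f) (hc : HasCompactSupport f) {T : ℝ}
    (hq : ∀ᵐ t : ℝ, T < t → ∃ (N : ℕ) (B : Fin N → Set (EuclideanSpace ℝ (Fin n))),
      (∀ i, Convex ℝ (B i)) ∧ (∀ i, IsCompact (B i)) ∧ (∀ i j, i ≠ j → Disjoint (B i) (B j)) ∧
      (∀ i, frontier (B i) ⊆ {x | t ≤ |f x|}) ∧ {x | t ≤ |f x|} ⊆ ⋃ i, B i ∧
      (μ.real (⋃ i, B i) ≤ 1 / 2 ∨ {x | t ≤ |f x|} = ⋃ i, B i)) :
    Entropy μ (fun x => f x ^ 2) ≤
      (280 * P + 2560 * κ ^ 2) * (1 + Real.log (1 + T ^ 2 / ∫ x, f x ^ 2 ∂μ)) *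
        ∫ x, ‖gradient f x‖ ^ 2 ∂μ :=
  high_outer H12.med H12.pw hκ hr₀ hP hIso hPoin hf hc hq

end Vale.Agent.P245.H316
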