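import Mathlib
import Vale.Agent.P245.H14.QCd

/-!
# P245: the logarithmic Sobolev inequality for functions with finitely many peaks

The level sets `{t ≤ |f|}` above the threshold `|E f| + T √Var f` are, for almost every `t`,
finite disjoint unions of closed convex sets (any number of peaks, any merging pattern).
-/

open MeasureTheory Metric Set Filter
open scoped ENNReal Topology ContDiff

namespace Vale.Agent.P245.H316

open Vale.Agent.P245 Vale.Agent.P245.H14

variable {n : ℕ} {μ : Measure (EuclideanSpace ℝ (Fin n))} {m M : ℝ}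

/-- the level set `{t ≤ |f|}` is a finite disjoint union of closed convex sets -/
def Peaks (f : EuclideanSpace ℝ (Fin n) → ℝ) (t : ℝ) : Prop :=
  ∃ (N : ℕ) (W : Fin N → Set (EuclideanSpace ℝ (Fin n))),
    (∀ i, Convex ℝ (W i) ∧ IsClosed (W i)) ∧ Pairwise (Function.onFun Disjoint W) ∧
    {x | t ≤ |f x|} = ⋃ i, W i

/-- small thickenings of disjoint compact sets are disjoint -/
theorem gap {N : ℕ} {W : Fin N → Set (EuclideanSpace ℝ (Fin n))} (hc : ∀ i, IsCompact (W i))
    (hd : Pairwise (Function.onFun Disjoint W)) :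
    ∀ᶠ s : ℝ in 𝓝[>] 0, Pairwise (Function.onFun Disjoint fun i => cthickening s (W i)) := by
  have h1 : ∀ i j : Fin N, ∀ᶠ s : ℝ in 𝓝[>] 0,
      i ≠ j → Disjoint (cthickening s (W i)) (cthickening s (W j)) := by
    intro i j
    by_cases hij : i = j
    · exact Eventually.of_forall fun s h => absurd hij h
    · obtain ⟨δ, hδ, hdis⟩ := (hd hij).exists_cthickenings (hc i) (hc j).isClosed
      filter_upwards [Ioo_mem_nhdsGT hδ] with s hs _
      exact hdis.mono (cthickening_mono hs.2.le _) (cthickening_mono hs.2.le _)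
  have h2 := eventually_all.2 fun i => eventually_all.2 fun j => h1 i j
  filter_upwards [h2] with s hs i j hij
  exact hs i j hij

/-- the level inequality -/
theorem level [IsProbabilityMeasure μ] (h : HasLogConcaveDensity μ) {K : ℝ} (hK : 0 < K)
    (hint : Integrable (fun x => ‖x‖) μ) (hcc : Conc μ K)
    {f : EuclideanSpace ℝ (Fin n) → ℝ} (hf : Continuous f) (hcs : HasCompactSupport f) {t : ℝ}
    (ht : 0 < t) (hq : m + 2 * √M < t → Peaks f t)
    {L : ℝ} (hL : ∀ x y, |f y| ≤ |f x| + ‖fderiv ℝ f x‖ * ‖y - x‖ + L * ‖y - x‖ ^ 2)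
    (hL0 : 0 ≤ L) (hM : 0 < M) (hi : Integrable (fun x => uu m |f x| ^ 2) μ)
    (hu : ∫ x, uu m |f x| ^ 2 ∂μ ≤ M) :
    ∀ᶠ s : ℝ in 𝓝[>] 0, μ.real {x | t ≤ |f x|} * (g1 m M t + s / (8 * √K) * g2 m M t)
      ≤ μ.real {x | t ≤ fs f L s x} * g1 m M t := by
  set A := {x : EuclideanSpace ℝ (Fin n) | t ≤ |f x|} with hA
  have hAc : IsClosed A := isClosed_le continuous_const hf.abs
  have hAk : IsCompact A := by
    refine IsCompact.of_isClosed_subset hcs hAc fun x hx => subset_tsupport f ?_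
    have h1 : t ≤ |f x| := hx
    intro h0
    rw [h0, abs_zero] at h1
    linarith
  rcases (g1_nonneg (m := m) (M := M) t).eq_or_lt with h0 | hg
  · refine Eventually.of_forall fun s => ?_
    rw [g2_eq, ← h0]; simp
  rcases (measureReal_nonneg (μ := μ) (s := A)).eq_or_lt with h0 | hpos
  · refine Eventually.of_forall fun s => ?_
    rw [← h0, zero_mul]
    exact mul_nonneg measureReal_nonneg hg.le
  have hw : 0 < uu m t := by
    rcases (uu_nonneg (m := m) t).eq_or_lt with h1 | h1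
    · rw [g1, ← h1] at hg; simp at hg
    · exact h1
  have hqp : 0 < qq m M t := by
    rcases (qq_nonneg (m := m) (M := M) t).eq_or_lt with h1 | h1
    · rw [g1, ← h1] at hg; simp at hg
    · exact h1
  have hlp : 0 < ll m M t := by rw [← qq_sq]; positivity
  have hw4 : 1 < uu m t ^ 2 / (4 * M) := by
    by_contra hcon
    push Not at hcon
    unfold ll at hlp
    rw [max_eq_right hcon, Real.log_one] at hlp
    exact lt_irrefl _ hlp
  have hll : ll m M t = Real.log (uu m t ^ 2 / (4 * M)) := by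
    unfold ll; rw [max_eq_left hw4.le]
  have htm : m + 2 * √M < t := by
    have e1 : uu m t = t - m := by
      have h2 := hw
      unfold uu at h2 ⊢
      rcases le_total (t - m) 0 with h1 | h1
      · rw [max_eq_right h1] at h2; exact absurd h2 (lt_irrefl _)
      · exact max_eq_left h1
    have h3 := hw4
    rw [lt_div_iff₀ (by positivity), one_mul] at h3
    have h4 : (2 * √M) ^ 2 < uu m t ^ 2 := by
      rw [mul_pow, Real.sq_sqrt hM.le]; linarith
    have h5 := lt_of_pow_lt_pow_left₀ 2 hw.le h4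
    linarith
  -- Markov
  have hmar : uu m t ^ 2 * μ.real A ≤ M := by
    refine le_trans ?_ hu
    refine le_trans ?_ (mul_meas_ge_le_integral_of_nonneg (μ := μ)
      (f := fun x => uu m |f x| ^ 2) (Eventually.of_forall fun x => sq_nonneg _) hi (uu m t ^ 2))
    refine mul_le_mul_of_nonneg_left ?_ (sq_nonneg _)
    refine measureReal_mono (fun x hx => ?_) (measure_ne_top _ _)
    have h1 : t ≤ |f x| := hx
    have h2 := uu_mono (m := m) h1
    show uu m t ^ 2 ≤ uu m |f x| ^ 2
    exact pow_le_pow_left₀ hw.le h2 2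
  have hA4 : μ.real A ≤ 1 / 4 := by
    rw [lt_div_iff₀ (by positivity)] at hw4
    nlinarith
  have hkl : ll m M t ≤ Real.log (1 / μ.real A) := by
    rw [hll]
    apply Real.log_le_log (by positivity)
    rw [div_le_div_iff₀ (by positivity) hpos]
    nlinarith
  have hk1 : 1 ≤ Real.log (1 / μ.real A) := by
    have h4 : Real.log 4 ≤ Real.log (1 / μ.real A) := by
      apply Real.log_le_log (by norm_num)
      rw [le_div_iff₀ hpos]; linarith
    have : Real.exp 1 ≤ 4 := by have := Real.exp_one_lt_d9; linarith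
    have : 1 ≤ Real.log 4 := by rw [Real.le_log_iff_exp_le (by norm_num)]; exact this
    linarith
  have hsK : 0 < √K := Real.sqrt_pos.2 hK
  obtain ⟨N, W, hW, hdis, hAe⟩ := hq htm
  have hWA : ∀ i, W i ⊆ A := fun i => by rw [hA, hAe]; exact subset_iUnion W i
  have hWc : ∀ i, IsCompact (W i) := fun i => hAk.of_isClosed_subset (hW i).2 (hWA i)
  filter_upwards [gap hWc hdis, Ioo_mem_nhdsGT (show (0 : ℝ) < 4 * √K by positivity)]
    with s hgap hs
  have hs0 : 0 < s := hs.1
  have hs1 : s < 4 * √K := hs.2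
  -- each piece
  have piece : ∀ i, μ.real (W i) * (1 + s / (8 * √K) * qq m M t)
      ≤ μ.real (cthickening s (W i)) := by
    intro i
    rcases (measureReal_nonneg (μ := μ) (s := W i)).eq_or_lt with h0 | hp
    · rw [← h0, zero_mul]; exact measureReal_nonneg
    have hle : μ.real (W i) ≤ μ.real A := measureReal_mono (hWA i) (measure_ne_top _ _)
    have hlog : Real.log (1 / μ.real A) ≤ Real.log (1 / μ.real (W i)) := by
      apply Real.log_le_log (by positivity)
      exact one_div_le_one_div_of_le hp hle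
    have hne : (W i).Nonempty := by
      rw [nonempty_iff_ne_empty]; intro h0; rw [h0] at hp; simp at hp
    have hiso := enl_iso h hK hint hcc (hW i).1 (hW i).2.measurableSet hp (hle.trans hA4) hs0 (by
      refine hs1.trans_le ?_
      have : √K ≤ √(K * Real.log (1 / μ.real (W i))) := Real.sqrt_le_sqrt (by nlinarith)
      linarith)
    have hsub : μ.real {x | infDist x (W i) ≤ s} ≤ μ.real (cthickening s (W i)) := by
      refine measureReal_mono (fun x hx => ?_) (measure_ne_top _ _)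
      have hx' : infDist x (W i) ≤ s := hx
      rw [mem_cthickening_iff]
      exact (ENNReal.le_ofReal_iff_toReal_le (infEDist_ne_top hne) hs0.le).2 hx'
    have hqk : qq m M t ≤ √(Real.log (1 / μ.real (W i))) :=
      Real.sqrt_le_sqrt (hkl.trans hlog)
    have hexp : 1 + s / (8 * √K) * qq m M t
        ≤ Real.exp (s * √(Real.log (1 / μ.real (W i))) / (8 * √K)) := by
      calc 1 + s / (8 * √K) * qq m M t = s * qq m M t / (8 * √K) + 1 := by ring
        _ ≤ Real.exp (s * qq m M t / (8 * √K)) := Real.add_one_le_exp _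
        _ ≤ _ := by
            apply Real.exp_le_exp.2
            gcongr
    calc μ.real (W i) * (1 + s / (8 * √K) * qq m M t)
        ≤ μ.real (W i) * Real.exp (s * √(Real.log (1 / μ.real (W i))) / (8 * √K)) := by gcongr
      _ ≤ _ := hiso.trans hsub
  have hsum : (∑ i, μ.real (cthickening s (W i))) ≤ μ.real {x | t ≤ fs f L s x} := by
    rw [← measureReal_iUnion_fintype hgap (fun i => isClosed_cthickening.measurableSet)
      (fun i => measure_ne_top _ _)]
    refine measureReal_mono (fun x hx => ?_) (measure_ne_top _ _)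
    obtain ⟨i, hxi⟩ := mem_iUnion.1 hx
    rw [(hWc i).cthickening_eq_biUnion_closedBall hs0.le] at hxi
    obtain ⟨y, hy, hxy⟩ := mem_iUnion₂.1 hxi
    have hy' : t ≤ |f y| := hWA i hy
    have h2 := hL x y
    have h3 : ‖y - x‖ ≤ s := by rw [← dist_eq_norm, dist_comm]; exact mem_closedBall.1 hxy
    show t ≤ |f x| + s * ‖fderiv ℝ f x‖ + L * s ^ 2
    calc t ≤ |f x| + ‖fderiv ℝ f x‖ * ‖y - x‖ + L * ‖y - x‖ ^ 2 := hy'.trans h2
      _ ≤ |f x| + s * ‖fderiv ℝ f x‖ + L * s ^ 2 := by
          rw [mul_comm s]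
          gcongr
  have hAs : μ.real A ≤ ∑ i, μ.real (W i) := by
    rw [hA, hAe]; exact measureReal_iUnion_fintype_le W
  have hq0 : 0 ≤ 1 + s / (8 * √K) * qq m M t := by positivity
  calc μ.real A * (g1 m M t + s / (8 * √K) * g2 m M t)
      = μ.real A * (1 + s / (8 * √K) * qq m M t) * g1 m M t := by rw [g2_eq]; ring
    _ ≤ (∑ i, μ.real (W i)) * (1 + s / (8 * √K) * qq m M t) * g1 m M t := by gcongr
    _ = (∑ i, μ.real (W i) * (1 + s / (8 * √K) * qq m M t)) * g1 m M t := by
        rw [Finset.sum_mul]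
    _ ≤ (∑ i, μ.real (cthickening s (W i))) * g1 m M t := by
        gcongr with i _
        exact piece i
    _ ≤ μ.real {x | t ≤ fs f L s x} * g1 m M t := by gcongr

/-- the distribution function is antitone -/
theorem anti [IsProbabilityMeasure μ] (g : EuclideanSpace ℝ (Fin n) → ℝ) :
    Antitone fun t : ℝ => μ.real {x | t ≤ g x} := fun a b hab =>
  measureReal_mono (fun x hx => le_trans hab hx) (measure_ne_top _ _)

/-- the bound of the increment, in the form of a layer cake of differences -/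
theorem increment [IsProbabilityMeasure μ]
    {f : EuclideanSpace ℝ (Fin n) → ℝ} (hf : ContDiff ℝ ∞ f)
    {L : ℝ} (hL0 : 0 ≤ L) (hM : 0 < M) {B B' : ℝ} (hB : ∀ x, |f x| ≤ B)
    (hB' : ∀ x, ‖fderiv ℝ f x‖ ≤ B') {s : ℝ} (hs : 0 < s) :
    ∫⁻ t in Ioi (0 : ℝ), ENNReal.ofReal
        ((μ.real {x | t ≤ fs f L s x} - μ.real {x | t ≤ |f x|}) * g1 m M t)
      ≤ ENNReal.ofReal (s * ∫ x, (‖fderiv ℝ f x‖ + L * s) * g1 m M (fs f L s x) ∂μ) := by
  have hBf : ∀ x, |(|f x|)| ≤ B := fun x => by rw [abs_abs]; exact hB x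
  have hfsnn : ∀ x, 0 ≤ fs f L s x := fun x => by unfold fs; positivity
  have hfsB : ∀ x, |fs f L s x| ≤ B + s * B' + L * s ^ 2 := fun x => by
    rw [abs_of_nonneg (hfsnn x)]
    unfold fs
    have := hB x
    have := hB' x
    gcongr
  have hB'0 : 0 ≤ B' := (norm_nonneg _).trans (hB' 0)
  have i1 : Integrable (fun x => GG m M |f x|) μ := int_comp continuous_GG hf.continuous.abs hBf
  have i3 : Integrable (fun x => GG m M (fs f L s x)) μ :=
    int_comp continuous_GG (continuous_fs hf L s) hfsB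
  have hcfd : Continuous fun x => ‖fderiv ℝ f x‖ := (hf.continuous_fderiv (by simp)).norm
  have i5 : Integrable (fun x => (‖fderiv ℝ f x‖ + L * s) * g1 m M (fs f L s x)) μ := by
    have j := int_comp (μ := μ) (continuous_g1 (m := m) (M := M)) (continuous_fs hf L s) hfsB
    refine Integrable.bdd_mul (c := B' + L * s) j ?_ ?_
    · exact (hcfd.add continuous_const).aestronglyMeasurable
    · filter_upwards with x
      rw [Real.norm_of_nonneg (by positivity)]
      linarith [hB' x]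
  have hlef : ∀ x, |f x| ≤ fs f L s x := fun x => by
    unfold fs
    have : 0 ≤ s * ‖fderiv ℝ f x‖ := by positivity
    have : 0 ≤ L * s ^ 2 := by positivity
    linarith [this]
  have h1 : (∫ x, GG m M (fs f L s x) ∂μ) - ∫ x, GG m M |f x| ∂μ
      ≤ s * ∫ x, (‖fderiv ℝ f x‖ + L * s) * g1 m M (fs f L s x) ∂μ := by
    rw [← integral_sub i3 i1, ← integral_const_mul]
    refine integral_mono (i3.sub i1) (i5.const_mul _) fun x => ?_
    refine (GG_sub_le hM (hlef x)).trans (le_of_eq ?_)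
    unfold fs
    ring
  have hii : ∀ x y : ℝ, IntervalIntegrable (g1 m M) volume x y := fun x y =>
    continuous_g1.intervalIntegrable x y
  have hG0 : ∀ y : ℝ, 0 ≤ y → 0 ≤ GG m M y := fun y hy =>
    intervalIntegral.integral_nonneg hy fun x _ => g1_nonneg x
  have cake1 : ENNReal.ofReal (∫ x, GG m M (fs f L s x) ∂μ)
      = ∫⁻ t in Ioi (0 : ℝ), μ {x | t ≤ fs f L s x} * ENNReal.ofReal (g1 m M t) := by
    rw [ofReal_integral_eq_lintegral_ofReal i3 (Eventually.of_forall fun x => hG0 _ (hfsnn x))]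
    exact lintegral_comp_eq_lintegral_meas_le_mul μ (f := fun x => fs f L s x)
        (Eventually.of_forall hfsnn) (continuous_fs hf L s).measurable.aemeasurable
        (g := g1 m M) (fun t _ => hii 0 t) (Eventually.of_forall fun t => g1_nonneg t)
  have cake2 : ENNReal.ofReal (∫ x, GG m M |f x| ∂μ)
      = ∫⁻ t in Ioi (0 : ℝ), μ {x | t ≤ |f x|} * ENNReal.ofReal (g1 m M t) := by
    rw [ofReal_integral_eq_lintegral_ofReal i1
      (Eventually.of_forall fun x => hG0 _ (abs_nonneg _))]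
    exact lintegral_comp_eq_lintegral_meas_le_mul μ (f := fun x => |f x|)
        (Eventually.of_forall fun x => abs_nonneg _) hf.continuous.abs.measurable.aemeasurable
        (g := g1 m M) (fun t _ => hii 0 t) (Eventually.of_forall fun t => g1_nonneg t)
  have c1 : ∀ S : Set (EuclideanSpace ℝ (Fin n)), μ S = ENNReal.ofReal (μ.real S) := fun S =>
    (ENNReal.ofReal_toReal (measure_ne_top _ _)).symm
  have hmono : ∀ t : ℝ, μ.real {x | t ≤ |f x|} ≤ μ.real {x | t ≤ fs f L s x} := fun t =>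
    measureReal_mono (fun x hx => le_trans hx (hlef x)) (measure_ne_top _ _)
  have hsplit : ∀ t : ℝ, μ {x | t ≤ fs f L s x} * ENNReal.ofReal (g1 m M t)
      = μ {x | t ≤ |f x|} * ENNReal.ofReal (g1 m M t) + ENNReal.ofReal
        ((μ.real {x | t ≤ fs f L s x} - μ.real {x | t ≤ |f x|}) * g1 m M t) := by
    intro t
    rw [c1 {x | t ≤ fs f L s x}, c1 {x | t ≤ |f x|}, ← ENNReal.ofReal_mul measureReal_nonneg,
      ← ENNReal.ofReal_mul measureReal_nonneg, ← ENNReal.ofReal_add
        (mul_nonneg measureReal_nonneg (g1_nonneg t))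
        (mul_nonneg (sub_nonneg.2 (hmono t)) (g1_nonneg t))]
    congr 1; ring
  have hmeas : Measurable fun t : ℝ => μ {x | t ≤ |f x|} * ENNReal.ofReal (g1 m M t) := by
    simp only [c1]
    exact (anti fun x => |f x|).measurable.ennreal_ofReal.mul
      continuous_g1.measurable.ennreal_ofReal
  simp only [hsplit] at cake1
  rw [lintegral_add_left hmeas, ← cake2] at cake1
  have hfin : ENNReal.ofReal (∫ x, GG m M |f x| ∂μ) ≠ ⊤ := ENNReal.ofReal_ne_top
  rw [add_comm] at cake1
  have h2 := ENNReal.eq_sub_of_add_eq hfin cake1.symm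
  rw [h2, ← ENNReal.ofReal_sub _ (integral_nonneg fun x => hG0 _ (abs_nonneg _))]
  exact ENNReal.ofReal_le_ofReal h1

/-- the limit `s → 0` by Fatou's lemma -/
theorem limit [IsProbabilityMeasure μ] (h : HasLogConcaveDensity μ) {K : ℝ} (hK : 0 < K)
    (hint : Integrable (fun x => ‖x‖) μ) (hcc : Conc μ K)
    {f : EuclideanSpace ℝ (Fin n) → ℝ} (hf : ContDiff ℝ ∞ f) (hcs : HasCompactSupport f)
    (hq : ∀ᵐ t : ℝ, m + 2 * √M < t → Peaks f t)
    {L : ℝ} (hL : ∀ x y, |f y| ≤ |f x| + ‖fderiv ℝ f x‖ * ‖y - x‖ + L * ‖y - x‖ ^ 2)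
    (hL0 : 0 ≤ L) (hM : 0 < M) {B B' : ℝ} (hB : ∀ x, |f x| ≤ B) (hB' : ∀ x, ‖fderiv ℝ f x‖ ≤ B')
    (hu : ∫ x, uu m |f x| ^ 2 ∂μ ≤ M) :
    (∫ x, JJ m M |f x| ∂μ) ≤ 8 * √K * ∫ x, ‖fderiv ℝ f x‖ * g1 m M |f x| ∂μ := by
  have hsK : 0 < √K := Real.sqrt_pos.2 hK
  have hcfd : Continuous fun x => ‖fderiv ℝ f x‖ := (hf.continuous_fderiv (by simp)).norm
  have hB0 : 0 ≤ B := (abs_nonneg _).trans (hB 0)
  have hB'0 : 0 ≤ B' := (norm_nonneg _).trans (hB' 0)
  have hT : Tendsto (fun s : ℝ => ∫ x, (‖fderiv ℝ f x‖ + L * s) * g1 m M (fs f L s x) ∂μ)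
      (𝓝[>] 0) (𝓝 (∫ x, ‖fderiv ℝ f x‖ * g1 m M |f x| ∂μ)) := by
    refine tendsto_integral_filter_of_dominated_convergence
      (fun _ => (B' + L) * g1 m M (B + B' + L)) ?_ ?_ (integrable_const _) ?_
    · refine Eventually.of_forall fun s => ?_
      exact ((hcfd.add continuous_const).mul
        (continuous_g1.comp (continuous_fs hf L s))).aestronglyMeasurable
    · filter_upwards [Ioo_mem_nhdsGT (show (0 : ℝ) < 1 by norm_num)] with s hs
      refine Eventually.of_forall fun x => ?_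
      have hs0 : 0 < s := hs.1
      have hs1 : s < 1 := hs.2
      have n1 := g1_nonneg (m := m) (M := M) (fs f L s x)
      rw [Real.norm_of_nonneg (mul_nonneg (by positivity) n1)]
      have b1 : fs f L s x ≤ B + B' + L := by
        unfold fs
        have e1 : s * ‖fderiv ℝ f x‖ ≤ 1 * B' := mul_le_mul hs1.le (hB' x) (norm_nonneg _) (by norm_num)
        have e2 : L * s ^ 2 ≤ L * 1 := mul_le_mul_of_nonneg_left (by nlinarith) hL0
        linarith [hB x]
      have b2 := g1_mono (m := m) hM b1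
      have b3 : ‖fderiv ℝ f x‖ + L * s ≤ B' + L := by nlinarith [hB' x]
      exact mul_le_mul b3 b2 n1 (by positivity)
    · refine Eventually.of_forall fun x => ?_
      have hc : Continuous fun s : ℝ => (‖fderiv ℝ f x‖ + L * s) * g1 m M (fs f L s x) := by
        unfold fs
        exact (by fun_prop : Continuous fun s : ℝ => ‖fderiv ℝ f x‖ + L * s).mul
          (continuous_g1.comp (by fun_prop))
      have := hc.tendsto 0
      have e : (‖fderiv ℝ f x‖ + L * 0) * g1 m M (fs f L 0 x) = ‖fderiv ℝ f x‖ * g1 m M |f x| := by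
        unfold fs; simp
      rw [e] at this
      exact this.mono_left nhdsWithin_le_nhds
  have hBf : ∀ x, |(|f x|)| ≤ B := fun x => by rw [abs_abs]; exact hB x
  have i2 : Integrable (fun x => JJ m M |f x|) μ := int_comp continuous_JJ hf.continuous.abs hBf
  have i4 : Integrable (fun x => uu m |f x| ^ 2) μ :=
    int_comp (Φ := fun y => uu m y ^ 2) (continuous_uu.pow 2) hf.continuous.abs hBf
  have hjj : ∀ x y : ℝ, IntervalIntegrable (g2 m M) volume x y := fun x y =>
    continuous_g2.intervalIntegrable x y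
  have hJ0 : ∀ y : ℝ, 0 ≤ y → 0 ≤ JJ m M y := fun y hy =>
    intervalIntegral.integral_nonneg hy fun x _ => g2_nonneg x
  have c1 : ∀ S : Set (EuclideanSpace ℝ (Fin n)), μ S = ENNReal.ofReal (μ.real S) := fun S =>
    (ENNReal.ofReal_toReal (measure_ne_top _ _)).symm
  have cake : ENNReal.ofReal (∫ x, JJ m M |f x| ∂μ)
      = ∫⁻ t in Ioi (0 : ℝ), ENNReal.ofReal (μ.real {x | t ≤ |f x|} * g2 m M t) := by
    rw [ofReal_integral_eq_lintegral_ofReal i2
      (Eventually.of_forall fun x => hJ0 _ (abs_nonneg _))]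
    have h1 := lintegral_comp_eq_lintegral_meas_le_mul μ (f := fun x => |f x|)
        (Eventually.of_forall fun x => abs_nonneg _) hf.continuous.abs.measurable.aemeasurable
        (g := g2 m M) (fun t _ => hjj 0 t) (Eventually.of_forall fun t => g2_nonneg t)
    refine h1.trans (lintegral_congr fun t => ?_)
    rw [c1, ← ENNReal.ofReal_mul measureReal_nonneg]
  have hX0 : 0 ≤ 8 * √K * ∫ x, ‖fderiv ℝ f x‖ * g1 m M |f x| ∂μ :=
    mul_nonneg (by positivity) (integral_nonneg fun x =>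
      mul_nonneg (norm_nonneg _) (g1_nonneg _))
  refine (ENNReal.ofReal_le_ofReal_iff hX0).1 ?_
  rw [cake]
  -- pointwise liminf
  have hpt : ∀ᵐ t ∂(volume.restrict (Ioi (0 : ℝ))),
      ENNReal.ofReal (μ.real {x | t ≤ |f x|} * g2 m M t) ≤
      liminf (fun s : ℝ => ENNReal.ofReal
        ((μ.real {x | t ≤ fs f L s x} - μ.real {x | t ≤ |f x|}) * g1 m M t)
          * ENNReal.ofReal (8 * √K / s)) (𝓝[>] 0) := by
    filter_upwards [ae_restrict_of_ae hq, ae_restrict_mem measurableSet_Ioi] with t ht1 ht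
    refine le_liminf_of_le (by isBoundedDefault) ?_
    filter_upwards [level h hK hint hcc hf.continuous hcs (mem_Ioi.1 ht) ht1 hL hL0 hM i4 hu,
      self_mem_nhdsWithin] with s hs hs0
    have hs0' : 0 < s := hs0
    have hc0 : 0 ≤ 8 * √K / s := by positivity
    rw [← ENNReal.ofReal_mul' hc0]
    refine ENNReal.ofReal_le_ofReal ?_
    have h3 : μ.real {x | t ≤ |f x|} * (s / (8 * √K) * g2 m M t)
        ≤ (μ.real {x | t ≤ fs f L s x} - μ.real {x | t ≤ |f x|}) * g1 m M t := by linarith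
    have h4 := mul_le_mul_of_nonneg_right h3 hc0
    refine le_trans (le_of_eq ?_) h4
    field_simp
  refine (lintegral_mono_ae hpt).trans ?_
  refine (lintegral_liminf_le fun s => ?_).trans ?_
  · exact ((((anti fun x => fs f L s x).measurable.sub (anti fun x => |f x|).measurable).mul
      continuous_g1.measurable).ennreal_ofReal).mul_const _
  have hlim : Tendsto (fun s : ℝ => ENNReal.ofReal
      (8 * √K * ∫ x, (‖fderiv ℝ f x‖ + L * s) * g1 m M (fs f L s x) ∂μ)) (𝓝[>] 0)
      (𝓝 (ENNReal.ofReal (8 * √K * ∫ x, ‖fderiv ℝ f x‖ * g1 m M |f x| ∂μ))) :=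
    ENNReal.tendsto_ofReal (hT.const_mul (8 * √K))
  rw [← hlim.liminf_eq]
  refine liminf_le_liminf ?_
  filter_upwards [self_mem_nhdsWithin] with s hs0
  have hs0' : 0 < s := hs0
  have hc0 : 0 ≤ 8 * √K / s := by positivity
  rw [lintegral_mul_const' _ _ ENNReal.ofReal_ne_top]
  refine (mul_le_mul_left (increment hf hL0 hM hB hB' hs0') _).trans ?_
  rw [← ENNReal.ofReal_mul' hc0]
  refine ENNReal.ofReal_le_ofReal (le_of_eq ?_)
  field_simp

/-- the bound of `Λ` -/
theorem lam_le [IsProbabilityMeasure μ] (h : HasLogConcaveDensity μ) {K : ℝ} (hK : 0 < K)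
    (hint : Integrable (fun x => ‖x‖) μ) (hcc : Conc μ K)
    {f : EuclideanSpace ℝ (Fin n) → ℝ} (hf : ContDiff ℝ ∞ f) (hcs : HasCompactSupport f)
    (hq : ∀ᵐ t : ℝ, m + 2 * √M < t → Peaks f t) (hm : 0 ≤ m)
    (hM : 0 < M) (hu : ∫ x, uu m |f x| ^ 2 ∂μ ≤ M) :
    ∫ x, uu m |f x| ^ 2 * ll m M |f x| ∂μ
      ≤ 4 * (∫ x, uu m |f x| ^ 2 ∂μ) + 1024 * K * ∫ x, ‖fderiv ℝ f x‖ ^ 2 ∂μ := by
  have hsK : 0 < √K := Real.sqrt_pos.2 hK
  obtain ⟨L, hL0, hL⟩ := taylor hf hcs
  obtain ⟨B, hB⟩ := hf.continuous.bounded_above_of_compact_support hcs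
  obtain ⟨B', hB'⟩ := (hf.continuous_fderiv (by simp)).bounded_above_of_compact_support
    (hcs.fderiv ℝ)
  have hB0 : ∀ x, |f x| ≤ B := fun x => by rw [← Real.norm_eq_abs]; exact hB x
  have hBf : ∀ x, |(|f x|)| ≤ B := fun x => by rw [abs_abs]; exact hB0 x
  have hlim := limit h hK hint hcc hf hcs hq hL hL0 hM hB0 hB' hu
  have hcfd : Continuous fun x => ‖fderiv ℝ f x‖ := (hf.continuous_fderiv (by simp)).norm
  have i2 : Integrable (fun x => JJ m M |f x|) μ := int_comp continuous_JJ hf.continuous.abs hBf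
  have i4 : Integrable (fun x => uu m |f x| ^ 2) μ :=
    int_comp (Φ := fun y => uu m y ^ 2) (continuous_uu.pow 2) hf.continuous.abs hBf
  have i6 : Integrable (fun x => uu m |f x| ^ 2 * ll m M |f x|) μ :=
    int_comp (Φ := fun y => uu m y ^ 2 * ll m M y) ((continuous_uu.pow 2).mul continuous_ll)
      hf.continuous.abs hBf
  have i7 : Integrable (fun x => ‖fderiv ℝ f x‖ ^ 2) μ := by
    refine int_comp (Φ := fun y => y ^ 2) (continuous_pow 2) hcfd (B := B') fun x => ?_
    rw [abs_of_nonneg (norm_nonneg _)]; exact hB' x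
  have i8 : Integrable (fun x => ‖fderiv ℝ f x‖ * g1 m M |f x|) μ := by
    have j := int_comp (μ := μ) (continuous_g1 (m := m) (M := M)) hf.continuous.abs hBf
    refine Integrable.bdd_mul (c := B') j hcfd.aestronglyMeasurable ?_
    filter_upwards with x
    rw [norm_norm]; exact hB' x
  set Lam := ∫ x, uu m |f x| ^ 2 * ll m M |f x| ∂μ with hLam
  set I := ∫ x, ‖fderiv ℝ f x‖ ^ 2 ∂μ with hI
  set M' := ∫ x, uu m |f x| ^ 2 ∂μ with hM'
  -- lower bound
  have h1 : Lam / 2 - Real.log 4 / 2 * M' ≤ ∫ x, JJ m M |f x| ∂μ := by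
    have : Lam / 2 - Real.log 4 / 2 * M'
        = ∫ x, (uu m |f x| ^ 2 * ll m M |f x| * (1 / 2) - uu m |f x| ^ 2 * (Real.log 4 / 2)) ∂μ := by
      rw [integral_sub (i6.mul_const _) (i4.mul_const _), integral_mul_const, integral_mul_const]
      ring
    rw [this]
    refine integral_mono ((i6.mul_const _).sub (i4.mul_const _)) i2 fun x => ?_
    have := JJ_ge hm hM (abs_nonneg (f x))
    have e : uu m |f x| ^ 2 * ll m M |f x| * (1 / 2) - uu m |f x| ^ 2 * (Real.log 4 / 2)
        = uu m |f x| ^ 2 / 2 * (ll m M |f x| - Real.log 4) := by ring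
    show uu m |f x| ^ 2 * ll m M |f x| * (1 / 2) - uu m |f x| ^ 2 * (Real.log 4 / 2) ≤ _
    rw [e]; exact this
  -- upper bound
  have h2 : ∫ x, ‖fderiv ℝ f x‖ * g1 m M |f x| ∂μ ≤ 32 * √K * I + 1 / (32 * √K) * Lam := by
    have : 32 * √K * I + 1 / (32 * √K) * Lam
        = ∫ x, (32 * √K * ‖fderiv ℝ f x‖ ^ 2
          + 1 / (32 * √K) * (uu m |f x| ^ 2 * ll m M |f x|)) ∂μ := by
      rw [integral_add (i7.const_mul _) (i6.const_mul _), integral_const_mul, integral_const_mul]
    rw [this]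
    refine integral_mono i8 ((i7.const_mul _).add (i6.const_mul _)) fun x => ?_
    show ‖fderiv ℝ f x‖ * g1 m M |f x| ≤ 32 * √K * ‖fderiv ℝ f x‖ ^ 2
          + 1 / (32 * √K) * (uu m |f x| ^ 2 * ll m M |f x|)
    rw [← qq_sq, g1]
    set a := ‖fderiv ℝ f x‖
    set b := uu m |f x|
    set c := qq m M |f x|
    have hp : 0 < 32 * √K := by positivity
    have : 0 ≤ (32 * √K * a - b * c) ^ 2 / (32 * √K) := by positivity
    have e : (32 * √K * a - b * c) ^ 2 / (32 * √K)
        = 32 * √K * a ^ 2 + 1 / (32 * √K) * (b ^ 2 * (c * c)) - a * (2 * b * c) := by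
      field_simp; ring
    linarith
  have hl4 : Real.log 4 ≤ 2 := by
    have : Real.log 4 = 2 * Real.log 2 := by
      rw [show (4 : ℝ) = 2 ^ 2 by norm_num, Real.log_pow]; norm_num
    have := Real.log_two_lt_d9
    linarith
  have hM'0 : 0 ≤ M' := integral_nonneg fun x => sq_nonneg _
  have hl40 : 0 ≤ Real.log 4 := Real.log_nonneg (by norm_num)
  have h3 : Real.log 4 / 2 * M' ≤ M' := by nlinarith
  have h4 : 8 * √K * (32 * √K * I + 1 / (32 * √K) * Lam) = 256 * K * I + Lam / 4 := by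
    have : √K * √K = K := Real.mul_self_sqrt hK.le
    have e : 8 * √K * (32 * √K * I + 1 / (32 * √K) * Lam)
        = 256 * (√K * √K) * I + Lam / 4 * (√K / √K) := by
      field_simp; ring
    rw [e, this, div_self hsK.ne', mul_one]
  have h5 : 8 * √K * ∫ x, ‖fderiv ℝ f x‖ * g1 m M |f x| ∂μ ≤ 256 * K * I + Lam / 4 := by
    rw [← h4]
    exact mul_le_mul_of_nonneg_left h2 (by positivity)
  linarith

/-- **Finitely many peaks**: the inequality of Q1 for every test function `f` such that, for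
almost every `t > |E f| + T √Var f`, the level set `{t ≤ |f|}` is a finite disjoint union of
closed convex sets (no bound on their number, no condition on how they merge as `t` falls). -/
theorem peaks [IsProbabilityMeasure μ] (h : HasLogConcaveDensity μ) {K P : ℝ} (hK : 0 < K)
    (hint : Integrable (fun x => ‖x‖) μ) (hcc : Conc μ K)
    (hP : ∀ f : EuclideanSpace ℝ (Fin n) → ℝ, ContDiff ℝ ∞ f → HasCompactSupport f →
      (∫ x, f x ^ 2 ∂μ) - (∫ x, f x ∂μ) ^ 2 ≤ P * ∫ x, ‖gradient f x‖ ^ 2 ∂μ)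
    {f : EuclideanSpace ℝ (Fin n) → ℝ} (hf : ContDiff ℝ ∞ f) (hcs : HasCompactSupport f) {T : ℝ} (hT : 2 ≤ T)
    (hq : ∀ᵐ t : ℝ, |∫ x, f x ∂μ| + T * √((∫ x, f x ^ 2 ∂μ) - (∫ x, f x ∂μ) ^ 2) < t →
      ∃ (N : ℕ) (W : Fin N → Set (EuclideanSpace ℝ (Fin n))),
        (∀ i, Convex ℝ (W i) ∧ IsClosed (W i)) ∧ Pairwise (Function.onFun Disjoint W) ∧
        {x | t ≤ |f x|} = ⋃ i, W i) :
    Entropy μ (fun x => f x ^ 2) ≤
      ((81 + 6 * Real.log (T / 2)) * P + 3072 * K) * ∫ x, ‖gradient f x‖ ^ 2 ∂μ := by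
  obtain ⟨B, hB⟩ := hf.continuous.bounded_above_of_compact_support hcs
  have hB0 : ∀ x, |f x| ≤ B := fun x => by rw [← Real.norm_eq_abs]; exact hB x
  have hBf : ∀ x, |(|f x|)| ≤ B := fun x => by rw [abs_abs]; exact hB0 x
  set m := |∫ x, f x ∂μ| with hm
  have hm0 : 0 ≤ m := abs_nonneg _
  set V := (∫ x, f x ^ 2 ∂μ) - (∫ x, f x ∂μ) ^ 2 with hV
  set I := ∫ x, ‖gradient f x‖ ^ 2 ∂μ with hI
  have hI' : I = ∫ x, ‖fderiv ℝ f x‖ ^ 2 ∂μ := by
    rw [hI]; simp only [norm_gradient]
  have j1 : Integrable f μ := int_comp (Φ := fun y => y) continuous_id hf.continuous hB0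
  have j2 : Integrable (fun x => f x ^ 2) μ :=
    int_comp (Φ := fun y => y ^ 2) (continuous_pow 2) hf.continuous hB0
  have j3 : Integrable (fun x => (f x - ∫ y, f y ∂μ) ^ 2) μ :=
    int_comp (Φ := fun y => (y - ∫ y, f y ∂μ) ^ 2) (by fun_prop) hf.continuous hB0
  have hVeq : ∫ x, (f x - ∫ y, f y ∂μ) ^ 2 ∂μ = V := by
    have e : ∀ x, (f x - ∫ y, f y ∂μ) ^ 2
        = f x ^ 2 - 2 * (∫ y, f y ∂μ) * f x + (∫ y, f y ∂μ) ^ 2 := fun x => by ring
    simp only [e]
    have k1 : Integrable (fun x => 2 * (∫ y, f y ∂μ) * f x) μ := j1.const_mul _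
    have k2 : Integrable (fun x => f x ^ 2 - 2 * (∫ y, f y ∂μ) * f x) μ := j2.sub k1
    rw [integral_add k2 (integrable_const _), integral_sub j2 k1, integral_const_mul,
      integral_const, probReal_univ, one_smul, hV]
    ring
  have hpt : ∀ x, (|f x| - m) ^ 2 ≤ (f x - ∫ y, f y ∂μ) ^ 2 := fun x => by
    rw [← sq_abs (|f x| - m), ← sq_abs (f x - ∫ y, f y ∂μ)]
    exact pow_le_pow_left₀ (abs_nonneg _) (abs_abs_sub_abs_le_abs_sub _ _) 2
  have j4 : Integrable (fun x => (|f x| - m) ^ 2) μ :=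
    int_comp (Φ := fun y => (y - m) ^ 2) (by fun_prop) hf.continuous.abs hBf
  have hV1 : ∫ x, (|f x| - m) ^ 2 ∂μ ≤ V := by
    rw [← hVeq]; exact integral_mono j4 j3 hpt
  have hV0 : 0 ≤ V := le_trans (integral_nonneg fun x => sq_nonneg _) hV1
  have hVP : V ≤ P * I := hP f hf hcs
  have hTl : 0 ≤ Real.log (T / 2) := Real.log_nonneg (by linarith)
  refine le_of_forall_pos_le_add fun ε hε => ?_
  set M := V + ε / 32 with hMd
  have hM : 0 < M := by positivity
  set R := T ^ 2 / 4 with hR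
  have hR1 : 1 ≤ R := by rw [hR]; nlinarith
  have hMR : 0 < M * R := by positivity
  have hlR : Real.log R = 2 * Real.log (T / 2) := by
    rw [hR, show T ^ 2 / 4 = (T / 2) ^ 2 by ring, Real.log_pow]; norm_num
  have j5 : Integrable (fun x => uu m |f x| ^ 2) μ :=
    int_comp (Φ := fun y => uu m y ^ 2) (continuous_uu.pow 2) hf.continuous.abs hBf
  have huV : ∫ x, uu m |f x| ^ 2 ∂μ ≤ V := by
    refine le_trans (integral_mono j5 j4 fun x => ?_) hV1
    show uu m |f x| ^ 2 ≤ (|f x| - m) ^ 2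
    unfold uu
    rcases le_total (|f x| - m) 0 with h1 | h1
    · rw [max_eq_right h1, zero_pow two_ne_zero]; exact sq_nonneg _
    · rw [max_eq_left h1]
  have hu : ∫ x, uu m |f x| ^ 2 ∂μ ≤ M * R := by
    have h1 : V ≤ M := by rw [hMd]; linarith [show 0 < ε / 32 by positivity]
    nlinarith
  have hq' : ∀ᵐ t : ℝ, m + 2 * √(M * R) < t → Peaks f t := by
    filter_upwards [hq] with t hqt ht
    refine hqt (lt_of_le_of_lt ?_ ht)
    have h1 : √(M * R) = √M * (T / 2) := by
      rw [Real.sqrt_mul hM.le, hR, show T ^ 2 / 4 = (T / 2) ^ 2 by ring,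
        Real.sqrt_sq (by linarith)]
    have h2 : √V ≤ √M := Real.sqrt_le_sqrt (by rw [hMd]; linarith [show 0 < ε / 32 by positivity])
    have h3 := Real.sqrt_nonneg V
    rw [h1]
    nlinarith
  have hLam := lam_le h hK hint hcc hf hcs hq' hm0 hMR hu
  rw [← hI'] at hLam
  have j6 : Integrable (fun x => uu m |f x| ^ 2 * ll m (M * R) |f x|) μ :=
    int_comp (Φ := fun y => uu m y ^ 2 * ll m (M * R) y)
      ((continuous_uu.pow 2).mul continuous_ll) hf.continuous.abs hBf
  have j6' : Integrable (fun x => uu m |f x| ^ 2 * ll m M |f x|) μ :=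
    int_comp (Φ := fun y => uu m y ^ 2 * ll m M y)
      ((continuous_uu.pow 2).mul continuous_ll) hf.continuous.abs hBf
  have hLam2 : ∫ x, uu m |f x| ^ 2 * ll m M |f x| ∂μ
      ≤ (∫ x, uu m |f x| ^ 2 * ll m (M * R) |f x| ∂μ)
        + Real.log R * ∫ x, uu m |f x| ^ 2 ∂μ := by
    rw [← integral_const_mul, ← integral_add j6 (j5.const_mul _)]
    refine integral_mono j6' (j6.add (j5.const_mul _)) fun x => ?_
    show uu m |f x| ^ 2 * ll m M |f x|
      ≤ uu m |f x| ^ 2 * ll m (M * R) |f x| + Real.log R * uu m |f x| ^ 2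
    have := mul_le_mul_of_nonneg_left (ll_le_ll (m := m) hM hR1 |f x|)
      (sq_nonneg (uu m |f x|))
    linarith
  have j7 : Integrable (fun x => f x ^ 2 * Real.log (f x ^ 2)) μ :=
    int_comp (Φ := fun y => y ^ 2 * Real.log (y ^ 2))
      (Real.continuous_mul_log.comp (continuous_pow 2)) hf.continuous hB0
  set F := ∫ x, f x ^ 2 ∂μ with hF
  have hF0 : 0 ≤ F := integral_nonneg fun x => sq_nonneg _
  have hc : 0 < m ^ 2 + M := by positivity
  -- variational formula
  have hvar : F * Real.log (m ^ 2 + M) + F - (m ^ 2 + M) ≤ F * Real.log F := by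
    rcases hF0.eq_or_lt with h0 | hFp
    · rw [← h0]; simp only [zero_mul, zero_add]; linarith
    · have h1 := Real.log_le_sub_one_of_pos (show 0 < (m ^ 2 + M) / F by positivity)
      rw [Real.log_div hc.ne' hFp.ne'] at h1
      have h2 := mul_le_mul_of_nonneg_left h1 hF0
      have h3 : F * ((m ^ 2 + M) / F - 1) = (m ^ 2 + M) - F := by field_simp
      rw [h3] at h2
      linarith
  have hpoint : ∀ x, f x ^ 2 * Real.log (f x ^ 2) - f x ^ 2 * Real.log (m ^ 2 + M) - f x ^ 2
      + (m ^ 2 + M) ≤ 37 * (|f x| - m) ^ 2 + 32 * M + 3 * (uu m |f x| ^ 2 * ll m M |f x|) := by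
    intro x
    have := ent_pt hm0 hM (abs_nonneg (f x))
    rwa [sq_abs] at this
  have k3 : Integrable (fun x => f x ^ 2 * Real.log (m ^ 2 + M)) μ := j2.mul_const _
  have k4 : Integrable (fun x => f x ^ 2 * Real.log (f x ^ 2)
      - f x ^ 2 * Real.log (m ^ 2 + M)) μ := j7.sub k3
  have k5 : Integrable (fun x => f x ^ 2 * Real.log (f x ^ 2)
      - f x ^ 2 * Real.log (m ^ 2 + M) - f x ^ 2) μ := k4.sub j2
  have k6 : Integrable (fun x => f x ^ 2 * Real.log (f x ^ 2)
      - f x ^ 2 * Real.log (m ^ 2 + M) - f x ^ 2 + (m ^ 2 + M)) μ := k5.add (integrable_const _)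
  have l1 : Integrable (fun x => 37 * (|f x| - m) ^ 2) μ := j4.const_mul _
  have l2 : Integrable (fun x => 37 * (|f x| - m) ^ 2 + 32 * M) μ := l1.add (integrable_const _)
  have l3 : Integrable (fun x => 3 * (uu m |f x| ^ 2 * ll m M |f x|)) μ := j6'.const_mul _
  have l4 : Integrable (fun x => 37 * (|f x| - m) ^ 2 + 32 * M
      + 3 * (uu m |f x| ^ 2 * ll m M |f x|)) μ := l2.add l3
  have hint2 := integral_mono k6 l4 hpoint
  rw [integral_add k5 (integrable_const _), integral_sub k4 j2, integral_sub j7 k3,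
    integral_mul_const, integral_add l2 l3, integral_add l1 (integrable_const _),
    integral_const_mul, integral_const_mul, integral_const_mul, integral_const, integral_const,
    probReal_univ, one_smul, one_smul] at hint2
  have hEnt : Entropy μ (fun x => f x ^ 2)
      = (∫ x, f x ^ 2 * Real.log (f x ^ 2) ∂μ) - F * Real.log F := rfl
  rw [hEnt]
  have hfin : 32 * M = 32 * V + ε := by rw [hMd]; ring
  have hlV : Real.log R * ∫ x, uu m |f x| ^ 2 ∂μ ≤ 2 * (Real.log (T / 2) * V) := by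
    rw [hlR]
    have := mul_le_mul_of_nonneg_left huV hTl
    linarith
  have hPI : (81 + 6 * Real.log (T / 2)) * V ≤ (81 + 6 * Real.log (T / 2)) * (P * I) :=
    mul_le_mul_of_nonneg_left hVP (by positivity)
  have hexp : ((81 + 6 * Real.log (T / 2)) * P + 3072 * K) * I
      = (81 + 6 * Real.log (T / 2)) * (P * I) + 3072 * K * I := by ring
  have hexp2 : (81 + 6 * Real.log (T / 2)) * V = 81 * V + 6 * (Real.log (T / 2) * V) := by ring
  rw [hexp]
  linarith [hLam, hLam2, hint2, hvar, hV1]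

end Vale.Agent.P245.H316
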