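import Vale.Agent.P245.H847.Stmt2

/-!
P245: named part of the hand-in `DimensionFreePoincare`: functions whose level sets have convex
outer boundary.
-/

open MeasureTheory
open scoped ContDiff

namespace Vale.Agent.P245.DFP

open Vale.Agent.P245

variable {n : ℕ}

/-- `A` is a finite union of pairwise disjoint compact convex sets `B i` from which holes
(arbitrary subsets of the interiors) are removed; if there are holes, `μ (⋃ B i) ≤ 1/2`. -/
def OuterConvex (μ : Measure (EuclideanSpace ℝ (Fin n)))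
    (A : Set (EuclideanSpace ℝ (Fin n))) : Prop :=
  ∃ (N : ℕ) (B : Fin N → Set (EuclideanSpace ℝ (Fin n))), (∀ i, Convex ℝ (B i)) ∧
    (∀ i, IsCompact (B i)) ∧ (∀ i j, i ≠ j → Disjoint (B i) (B j)) ∧
    (∀ i, frontier (B i) ⊆ A) ∧ A ⊆ ⋃ i, B i ∧
    (μ.real (⋃ i, B i) ≤ 1 / 2 ∨ A = ⋃ i, B i)

/-- the logarithmic Sobolev inequality for all `f ∈ C_c^∞` for which almost all superlevel sets
`{|f| ≥ t}`, `t > T`, are `OuterConvex` (`T = 0` for all quasi-concave `f ≥ 0`), with the factor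
`1 + log (1 + T² / ∫ f²)`. -/
def OuterLogSobolev (μ : Measure (EuclideanSpace ℝ (Fin n))) (D : ℝ) : Prop :=
  ∀ f : EuclideanSpace ℝ (Fin n) → ℝ, ContDiff ℝ ∞ f → HasCompactSupport f →
    ∀ T : ℝ, 0 ≤ T → (∀ᵐ t : ℝ, T < t → OuterConvex μ {x | t ≤ |f x|}) →
      Entropy μ (fun x => f x ^ 2) ≤
        D * (1 + Real.log (1 + T ^ 2 / ∫ x, f x ^ 2 ∂μ)) * ∫ x, ‖gradient f x‖ ^ 2 ∂μ

end Vale.Agent.P245.DFP
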